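import Vale.Agent.P329.H962.Rows

/-!
# P329 : row F2 of helper962 (Lemma N and the rotation lemma)
-/

namespace Vale.Agent.P329.H962

open Filter

namespace F2

section lim

variable {B : Type}

/-- limits of sequences along an ultrafilter -/
theorem lim_ex [Finite B] (m : ℕ → ℕ → B) :
    ∃ z : ℕ → B, ∀ L : ℕ, ∀ᶠ J in (hyperfilter ℕ : Filter ℕ), ∀ i < L, m J i = z i := by
  have h1 : ∀ i, ∃ b : B, ∀ᶠ J in (hyperfilter ℕ : Filter ℕ), m J i = b := by
    intro i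
    obtain ⟨b, hb⟩ := Ultrafilter.eq_pure_of_finite ((hyperfilter ℕ).map fun J => m J i)
    refine ⟨b, ?_⟩
    have h2 : ∀ᶠ c in (((hyperfilter ℕ).map fun J => m J i : Ultrafilter B) : Filter B),
        c = b := by
      rw [hb]
      exact Filter.eventually_pure.2 rfl
    exact h2
  choose z hz using h1
  refine ⟨z, fun L => ?_⟩
  have h3 := (Filter.eventually_all_finset (Finset.range L)
    (l := (hyperfilter ℕ : Filter ℕ)) (p := fun i J => m J i = z i)).2 fun i _ => hz i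
  filter_upwards [h3] with J hJ i hi using hJ i (Finset.mem_range.2 hi)

theorem ge_hyper (n : ℕ) : ∀ᶠ J in (hyperfilter ℕ : Filter ℕ), n ≤ J :=
  (Nat.hyperfilter_le_atTop : (hyperfilter ℕ : Filter ℕ) ≤ atTop) (eventually_ge_atTop n)

theorem Mn.shift {M : Set (ℕ → B)} (h : Mn M) {m : ℕ → B} (hm : m ∈ M) (k : ℕ) :
    (fun i => m (k + i)) ∈ M := by
  induction k with
  | zero => simpa using hm
  | succ k ih =>
    have h1 := h.inv _ ih
    have h2 : sh (fun i => m (k + i)) = fun i => m (k + 1 + i) := by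
      funext i
      simp only [sh]
      congr 1
      omega
    rwa [h2] at h1

theorem Mn.lim {M : Set (ℕ → B)} (h : Mn M) {m : ℕ → ℕ → B} (hm : ∀ J, m J ∈ M) {z : ℕ → B}
    (hz : ∀ L : ℕ, ∀ᶠ J in (hyperfilter ℕ : Filter ℕ), ∀ i < L, m J i = z i) : z ∈ M := by
  refine h.cl z fun L => ?_
  obtain ⟨J, hJ⟩ := (hz L).exists
  exact ⟨m J, hm J, hJ⟩

end lim

section skew

variable {B : Type} {p : ℕ}

abbrev E (B : Type) (p : ℕ) : Type := B × ZMod p × ZMod p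

/-- the point of the skew product over `x` with first height `s` -/
def lift (τ : (ℕ → B) → ZMod p) (x : ℕ → B) : ZMod p → ℕ → ZMod p
  | s, 0 => s
  | s, i + 1 => lift τ x s i - τ fun k => x (i + k)

def pt (τ : (ℕ → B) → ZMod p) (x : ℕ → B) (s : ZMod p) : ℕ → E B p := fun i =>
  (x i, lift τ x s i, τ fun k => x (i + k))

theorem lift_add (τ : (ℕ → B) → ZMod p) (x : ℕ → B) (s c : ZMod p) (i : ℕ) :
    lift τ x (s + c) i = lift τ x s i + c := by
  induction i with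
  | zero => rfl
  | succ i ih =>
    simp only [lift, ih]
    ring

theorem rot_pt (τ : (ℕ → B) → ZMod p) (x : ℕ → B) (s c : ZMod p) :
    rot c (pt τ x s) = pt τ x (s + c) := by
  funext i
  simp only [rot, pt, lift_add]

theorem sh_rot (c : ZMod p) (z : ℕ → E B p) : sh (rot c z) = rot c (sh z) := rfl

theorem rot_rot (c d : ZMod p) (z : ℕ → E B p) : rot c (rot d z) = rot (c + d) z := by
  funext i
  simp only [rot]
  refine Prod.ext rfl (Prod.ext ?_ rfl)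
  show (z i).2.1 + d + c = (z i).2.1 + (c + d)
  ring

theorem rot_zero (z : ℕ → E B p) : rot 0 z = z := by
  funext i
  simp only [rot, add_zero]

theorem pr1_rot (c : ZMod p) (z : ℕ → E B p) : pr1 (rot c z) = pr1 z := rfl

theorem pt_congr {τ : (ℕ → B) → ZMod p} {J : ℕ} (hτ : Wn J τ) {L : ℕ} {x y : ℕ → B}
    (h : ∀ i < L + J, x i = y i) (s : ZMod p) : ∀ i < L, pt τ x s i = pt τ y s i := by
  have h1 : ∀ i < L, (τ fun k => x (i + k)) = τ fun k => y (i + k) := by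
    intro i hi
    exact hτ _ _ fun k hk => h (i + k) (by omega)
  have h2 : ∀ i ≤ L, lift τ x s i = lift τ y s i := by
    intro i
    induction i with
    | zero => intro _; rfl
    | succ i ih =>
      intro hi
      simp only [lift]
      rw [ih (by omega), h1 i (by omega)]
  intro i hi
  simp only [pt]
  rw [h (i := i) (by omega), h2 i (by omega), h1 i hi]

variable {M : Set (ℕ → B)} {τ : (ℕ → B) → ZMod p} {M' : Set (ℕ → E B p)}

theorem eq_pt (hM' : Mn M') (hS : Skw M τ M') {m : ℕ → E B p} (hm : m ∈ M') :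
    m = pt τ (pr1 m) (m 0).2.1 := by
  have h2 : ∀ i, (m i).2.2 = τ fun k => pr1 m (i + k) := by
    intro i
    have h1 := hS.tau _ (Mn.shift hM' hm i)
    exact h1
  have h3 : ∀ i, (m i).2.1 = lift τ (pr1 m) (m 0).2.1 i := by
    intro i
    induction i with
    | zero => rfl
    | succ i ih =>
      have h1 := hS.st _ (Mn.shift hM' hm i)
      simp only [add_zero] at h1
      simp only [lift]
      rw [← ih, ← h2 i, h1]
      ring
  funext i
  simp only [pt]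
  refine Prod.ext rfl (Prod.ext (h3 i) (h2 i))

theorem surj [Finite B] [Fact p.Prime] (hM : Mn M) (hM' : Mn M') (hS : Skw M τ M')
    {x : ℕ → B} (hx : x ∈ M) : ∃ m ∈ M', pr1 m = x := by
  obtain ⟨m0, hm0⟩ := hM'.ne
  have h1 := hM.mn _ (hS.pr m0 hm0) x hx
  choose k hk using h1
  obtain ⟨z, hz⟩ := lim_ex fun J i => m0 (k J + i)
  refine ⟨z, Mn.lim hM' (fun J => Mn.shift hM' hm0 (k J)) hz, ?_⟩
  funext i
  obtain ⟨J, hJ, hJi⟩ := ((hz (i + 1)).and (ge_hyper (i + 1))).exists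
  have h2 := hJ i (Nat.lt_succ_self i)
  have h3 := hk J i (by omega)
  show (z i).1 = x i
  rw [← h2]
  exact h3

theorem rot_mem (hM' : Mn M') {c : ZMod p} {m : ℕ → E B p} (hm : m ∈ M')
    (hc : rot c m ∈ M') {m' : ℕ → E B p} (hm' : m' ∈ M') : rot c m' ∈ M' := by
  refine hM'.cl _ fun J => ?_
  obtain ⟨k, hk⟩ := hM'.mn m hm m' hm' J
  refine ⟨fun i => rot c m (k + i), Mn.shift hM' hc k, fun i hi => ?_⟩
  simp only [rot]
  rw [hk i hi]

theorem rot_all [Fact p.Prime] (hM' : Mn M') {c : ZMod p} (h0 : c ≠ 0) {m : ℕ → E B p}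
    (hm : m ∈ M') (hc : rot c m ∈ M') {m' : ℕ → E B p} (hm' : m' ∈ M') (d : ZMod p) :
    rot d m' ∈ M' := by
  have h1 : ∀ n : ℕ, rot ((n : ZMod p) * c) m' ∈ M' := by
    intro n
    induction n with
    | zero => simpa [rot_zero] using hm'
    | succ n ih =>
      have h2 := rot_mem hM' hm hc ih
      rw [rot_rot] at h2
      have h3 : c + (n : ZMod p) * c = ((n + 1 : ℕ) : ZMod p) * c := by push_cast; ring
      rwa [h3] at h2
  have h2 := h1 (d * c⁻¹).val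
  rw [ZMod.natCast_zmod_val, mul_assoc, inv_mul_cancel₀ h0, mul_one] at h2
  exact h2

theorem inj_win [Finite B] [Fact p.Prime] (hM' : Mn M') (hS : Skw M τ M')
    (hno : ∀ c : ZMod p, c ≠ 0 → ∀ m ∈ M', rot c m ∉ M') :
    ∃ L, ∀ m ∈ M', ∀ m' ∈ M', (∀ i < L, pr1 m i = pr1 m' i) → (m 0).2.1 = (m' 0).2.1 := by
  by_contra hcon
  push Not at hcon
  choose a ha b hb hab hne using hcon
  obtain ⟨y, hy⟩ := lim_ex a
  obtain ⟨z, hz⟩ := lim_ex b
  have hyM := Mn.lim hM' ha hy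
  have hzM := Mn.lim hM' hb hz
  have h1 : pr1 y = pr1 z := by
    funext i
    obtain ⟨J, ⟨hJ, hJ'⟩, hJi⟩ := (((hy (i + 1)).and (hz (i + 1))).and (ge_hyper (i + 1))).exists
    show (y i).1 = (z i).1
    rw [← hJ i (Nat.lt_succ_self i), ← hJ' i (Nat.lt_succ_self i)]
    exact hab J i (by omega)
  have h2 : (y 0).2.1 ≠ (z 0).2.1 := by
    obtain ⟨J, hJ, hJ'⟩ := ((hy 1).and (hz 1)).exists
    rw [← hJ 0 Nat.one_pos, ← hJ' 0 Nat.one_pos]
    exact hne J
  have h3 : rot ((y 0).2.1 - (z 0).2.1) z = y := by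
    rw [eq_pt hM' hS hzM, eq_pt hM' hS hyM, rot_pt, h1]
    congr 1
    simp only [pt, lift]
    ring
  exact hno _ (sub_ne_zero.2 h2) z hzM (by rw [h3]; exact hyM)

theorem cob_of_no [Finite B] [Fact p.Prime] (hM : Mn M) (hM' : Mn M') (hS : Skw M τ M')
    (hno : ∀ c : ZMod p, c ≠ 0 → ∀ m ∈ M', rot c m ∉ M') : Cob M τ := by
  classical
  obtain ⟨L, hL⟩ := inj_win hM' hS hno
  let Q : (ℕ → B) → Prop := fun x => ∃ m ∈ M', ∀ i < L, pr1 m i = x i
  let ψ : (ℕ → B) → ZMod p := fun x => if h : Q x then (h.choose 0).2.1 else 0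
  have hψ : ∀ x, ∀ m ∈ M', (∀ i < L, pr1 m i = x i) → ψ x = (m 0).2.1 := by
    intro x m hm hmx
    have hQ : Q x := ⟨m, hm, hmx⟩
    have h1 : ψ x = (hQ.choose 0).2.1 := dif_pos hQ
    rw [h1]
    obtain ⟨h2, h3⟩ := hQ.choose_spec
    exact hL _ h2 _ hm fun i hi => (h3 i hi).trans (hmx i hi).symm
  refine ⟨ψ, ⟨L, ?_⟩, ?_⟩
  · intro x y hxy
    by_cases hQ : Q x
    · obtain ⟨m, hm, hmx⟩ := hQ
      rw [hψ x m hm hmx, hψ y m hm fun i hi => (hmx i hi).trans (hxy i hi)]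
    · have hQ' : ¬ Q y := by
        rintro ⟨m, hm, hmy⟩
        exact hQ ⟨m, hm, fun i hi => (hmy i hi).trans (hxy i hi).symm⟩
      show (if h : Q x then (h.choose 0).2.1 else 0) = (if h : Q y then (h.choose 0).2.1 else 0)
      rw [dif_neg hQ, dif_neg hQ']
  · intro x hx
    obtain ⟨m, hm, rfl⟩ := surj hM hM' hS hx
    rw [hψ (pr1 m) m hm fun i _ => rfl,
      hψ (sh (pr1 m)) (sh m) (hM'.inv m hm) fun i _ => rfl, ← hS.tau m hm]
    have h1 := hS.st m hm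
    show (m 0).2.2 = (m 0).2.1 - (m 1).2.1
    rw [h1]
    ring

theorem all_rot [Finite B] [Fact p.Prime] (hM : Mn M) (hM' : Mn M') (hS : Skw M τ M')
    (hτ : ¬ Cob M τ) : ∀ m ∈ M', ∀ c, rot c m ∈ M' := by
  by_cases hno : ∀ c : ZMod p, c ≠ 0 → ∀ m ∈ M', rot c m ∉ M'
  · exact absurd (cob_of_no hM hM' hS hno) hτ
  · push Not at hno
    obtain ⟨c, hc, m, hm, hcm⟩ := hno
    intro m' hm' d
    exact rot_all hM' hc hm hcm hm' d

theorem cob_of_sum [Finite B] [Fact p.Prime] (hM : Mn M) (hM' : Mn M') (hS : Skw M τ M')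
    {J : ℕ} (hJ : Wn J τ) (hr : ∀ m ∈ M', ∀ c, rot c m ∈ M') (Θ : (ℕ → E B p) → ZMod p)
    (hΘ : ∀ m ∈ M', ∑ c, Θ (rot c m) = τ (pr1 m)) (hC : Cob M' Θ) : Cob M τ := by
  obtain ⟨Ψ, ⟨L, hL⟩, hΨ⟩ := hC
  have key : ∀ m ∈ M', ∑ c, Ψ (rot c m) = ∑ c, Ψ (pt τ (pr1 m) c) := by
    intro m hm
    have h1 : ∀ c, rot c m = pt τ (pr1 m) ((m 0).2.1 + c) := by
      intro c
      conv_lhs => rw [eq_pt hM' hS hm, rot_pt]
    simp only [h1]
    exact Fintype.sum_equiv (Equiv.addLeft (m 0).2.1) _ _ fun c => rfl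
  refine ⟨fun x => ∑ c, Ψ (pt τ x c), ⟨L + J, ?_⟩, ?_⟩
  · intro x y hxy
    refine Finset.sum_congr rfl fun c _ => ?_
    exact hL _ _ (pt_congr hJ hxy c)
  · intro x hx
    obtain ⟨m, hm, rfl⟩ := surj hM hM' hS hx
    have h1 : (∑ c, Ψ (pt τ (pr1 m) c)) = ∑ c, Ψ (rot c m) := (key m hm).symm
    have h2 : (∑ c, Ψ (pt τ (sh (pr1 m)) c)) = ∑ c, Ψ (rot c (sh m)) :=
      (key (sh m) (hM'.inv m hm)).symm
    show τ (pr1 m) = (∑ c, Ψ (pt τ (pr1 m) c)) - ∑ c, Ψ (pt τ (sh (pr1 m)) c)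
    rw [h1, h2, ← hΘ m hm, ← Finset.sum_sub_distrib]
    refine Finset.sum_congr rfl fun c _ => ?_
    rw [hΨ _ (hr m hm c)]
    rfl

end skew

end F2

theorem rowF2 : RowF2 := by
  intro B _ p _ M τ J M' hM hJ hM' hS hτ
  have hr := F2.all_rot hM hM' hS hτ
  refine ⟨hr, ?_, ?_⟩
  · intro x hx s
    obtain ⟨m, hm, rfl⟩ := F2.surj hM hM' hS hx
    refine ⟨rot (s - (m 0).2.1) m, hr m hm _, rfl, ?_⟩
    show (m 0).2.1 + (s - (m 0).2.1) = s
    ring
  · intro Θ hΘ hC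
    exact hτ (F2.cob_of_sum hM hM' hS hJ hr Θ hΘ hC)

end Vale.Agent.P329.H962
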