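import Mathlib

/-!
# Cohomology of `ZMod p`-valued cocycles over a map

* `fibre_sum`, `theta_cob`: a coboundary on the skew product `Y × ZMod p` has a coboundary on `Y`
  as its sum over the fibres;
* `heredE`: if every continuous function is invariant plus coboundary for `T`, then every
  continuous function is (`T`-)invariant plus coboundary for `T^[p]`.
-/

set_option autoImplicit false
set_option linter.unusedSectionVars false

namespace Vale.Agent.P329.H6

open Finset

section

variable {Y : Type*} {p : ℕ} [NeZero p]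

/-- summing a coboundary of the skew product over a fibre -/
theorem fibre_sum {T : Y → Y} {σ : Y → ZMod p} {Θ F : Y → ZMod p → ZMod p}
    (h : ∀ y s, Θ y s = F (T y) (s + σ y) - F y s) (y : Y) :
    ∑ s, Θ y s = (∑ s, F (T y) s) - ∑ s, F y s := by
  simp only [h, sum_sub_distrib]
  congr 1
  exact Equiv.sum_comp (Equiv.addRight (σ y)) (fun s => F (T y) s)

/-- the letter functions of the return words have the fibre sum `σ` -/
theorem theta_sum (σ : ZMod p) (c x : ZMod p) :
    ∑ s : ZMod p, ((if s + σ = c then σ else 0) +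
      x * ((if s + σ = c then 1 else 0) - (if s = c then 1 else 0))) = σ := by
  have h1 : ∀ s : ZMod p, (s + σ = c) = (s = c - σ) := fun s => by
    rw [eq_iff_iff]
    exact eq_sub_iff_add_eq.symm
  simp only [h1, sum_add_distrib, ← mul_sum, sum_sub_distrib]
  simp

/-- **Symmetry.** If the letter function of the return words to the state `c` is a coboundary on
the skew product, then the walk is a coboundary on the base. -/
theorem theta_cob {T : Y → Y} {σ : Y → ZMod p} {F : Y → ZMod p → ZMod p} (c : ZMod p)
    (x : Y → ZMod p)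
    (h : ∀ y s, (if s + σ y = c then σ y else 0) +
      x y * ((if s + σ y = c then 1 else 0) - (if s = c then 1 else 0)) =
      F (T y) (s + σ y) - F y s) (y : Y) :
    σ y = (∑ s, F (T y) s) - ∑ s, F y s := by
  rw [← fibre_sum (T := T) (σ := σ) (Θ := fun y s => (if s + σ y = c then σ y else 0) +
      x y * ((if s + σ y = c then 1 else 0) - (if s = c then 1 else 0))) h y]
  exact (theta_sum (σ y) c (x y)).symm

variable [TopologicalSpace Y]

theorem continuous_fibre {F : Y × ZMod p → ZMod p} (hF : Continuous F) :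
    Continuous fun y => ∑ s, F (y, s) :=
  continuous_finsetSum _ fun s _ => hF.comp (by fun_prop)

/-- symmetry, with continuity -/
theorem theta_cob' {T : Y → Y} {σ : Y → ZMod p} {F : Y × ZMod p → ZMod p} (hF : Continuous F)
    (c : ZMod p) (x : Y → ZMod p)
    (h : ∀ y s, (if s + σ y = c then σ y else 0) +
      x y * ((if s + σ y = c then 1 else 0) - (if s = c then 1 else 0)) =
      F (T y, s + σ y) - F (y, s)) :
    ∃ G : Y → ZMod p, Continuous G ∧ ∀ y, σ y = G (T y) - G y :=
  ⟨fun y => ∑ s, F (y, s), continuous_fibre hF, fun y =>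
    theta_cob (F := fun y s => F (y, s)) c x h y⟩

/-- general form: any function on the skew product -/
theorem fibre_cob {T : Y → Y} {σ τ : Y → ZMod p} {Θ F : Y × ZMod p → ZMod p} (hF : Continuous F)
    (hΘ : ∀ y, ∑ s, Θ (y, s) = τ y)
    (h : ∀ y s, Θ (y, s) = F (T y, s + σ y) - F (y, s)) :
    ∃ G : Y → ZMod p, Continuous G ∧ ∀ y, τ y = G (T y) - G y :=
  ⟨fun y => ∑ s, F (y, s), continuous_fibre hF, fun y => by
    rw [← hΘ y]
    exact fibre_sum (Θ := fun y s => Θ (y, s)) (F := fun y s => F (y, s)) h y⟩

end

section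

variable {Y : Type*} {p : ℕ} [Fact p.Prime]

/-- composition with `T` -/
def comp (p : ℕ) (T : Y → Y) : (Y → ZMod p) →ₗ[ZMod p] (Y → ZMod p) :=
  LinearMap.funLeft (ZMod p) (ZMod p) T

@[simp] theorem comp_apply (T : Y → Y) (f : Y → ZMod p) (y : Y) : comp p T f y = f (T y) := rfl

theorem comp_pow (T : Y → Y) (n : ℕ) (f : Y → ZMod p) (y : Y) :
    ((comp p T) ^ n) f y = f (T^[n] y) := by
  induction n generalizing y with
  | zero => simp
  | succ n ih =>
    rw [pow_succ', Module.End.mul_apply, comp_apply, ih, Function.iterate_succ_apply]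

/-- `(T - 1) ^ p = T ^ p - 1` in characteristic `p` -/
theorem sub_pow_end {M : Type*} [AddCommGroup M] [Module (ZMod p) M] (K : Module.End (ZMod p) M) :
    (K - 1) ^ p = K ^ p - 1 := by
  have h : ((Polynomial.X : Polynomial (ZMod p)) - 1) ^ p = Polynomial.X ^ p - 1 := by
    rw [sub_pow_char, one_pow]
  have h2 := congrArg (Polynomial.aeval K) h
  simpa using h2

variable [TopologicalSpace Y]

theorem cont_comp {T : Y → Y} (hT : Continuous T) {f : Y → ZMod p} (hf : Continuous f) (n : ℕ) :
    Continuous (((comp p T - 1) ^ n) f) := by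
  induction n with
  | zero => simpa using hf
  | succ n ih =>
    rw [pow_succ', Module.End.mul_apply]
    have : (comp p T - 1) (((comp p T - 1) ^ n) f) = fun y =>
        (((comp p T - 1) ^ n) f) (T y) - (((comp p T - 1) ^ n) f) y := by
      funext y
      rfl
    rw [this]
    exact (ih.comp hT).sub ih

/-- **Type E is hereditary.** -/
theorem heredE {T : Y → Y}
    (h : ∀ g : Y → ZMod p, Continuous g → ∃ e f : Y → ZMod p, Continuous e ∧ Continuous f ∧
      (∀ y, e (T y) = e y) ∧ ∀ y, g y = e y + f (T y) - f y) :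
    ∀ g : Y → ZMod p, Continuous g → ∃ e f : Y → ZMod p, Continuous e ∧ Continuous f ∧
      (∀ y, e (T y) = e y) ∧ ∀ y, g y = e y + f (T^[p] y) - f y := by
  have key : ∀ n : ℕ, ∀ g : Y → ZMod p, Continuous g → ∃ e f : Y → ZMod p, Continuous e ∧
      Continuous f ∧ (∀ y, e (T y) = e y) ∧ g = e + ((comp p T - 1) ^ (n + 1)) f := by
    intro n
    induction n with
    | zero =>
      intro g hg
      obtain ⟨e, f, he, hf, h1, h2⟩ := h g hg
      refine ⟨e, f, he, hf, h1, ?_⟩
      funext y
      rw [h2 y]
      simp [LinearMap.sub_apply]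
      ring
    | succ n ih =>
      intro g hg
      obtain ⟨e, f, he, hf, h1, h2⟩ := ih g hg
      obtain ⟨e', f', he', hf', h1', h2'⟩ := h f hf
      refine ⟨e, f', he, hf', h1, ?_⟩
      have h3 : f = e' + (comp p T - 1) f' := by
        funext y
        rw [h2' y]
        simp [LinearMap.sub_apply]
        ring
      have h4 : (comp p T - 1) e' = 0 := by
        funext y
        simp [LinearMap.sub_apply, h1' y]
      have h5 : ((comp p T - 1) ^ (n + 1)) e' = 0 := by
        rw [pow_succ, Module.End.mul_apply, h4, map_zero]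
      rw [h2, h3, map_add, h5, zero_add, ← Module.End.mul_apply, ← pow_succ]
  intro g hg
  obtain ⟨e, f, he, hf, h1, h2⟩ := key (p - 1) g hg
  refine ⟨e, f, he, hf, h1, fun y => ?_⟩
  have hp : p - 1 + 1 = p := Nat.sub_add_cancel (Fact.out : p.Prime).one_lt.le
  rw [hp, sub_pow_end] at h2
  rw [h2]
  simp only [Pi.add_apply, LinearMap.sub_apply, Pi.sub_apply, comp_pow, Module.End.one_apply]
  ring

end

end Vale.Agent.P329.H6
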