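import Vale.Agent.P329.H6.Dyn

/-!
# Coboundaries for `T` and for `T^[p]`
-/

set_option autoImplicit false
set_option linter.unusedSectionVars false

namespace Vale.Agent.P329.H6

open Finset

section

variable {Y : Type*} {p : ℕ} [Fact p.Prime] [TopologicalSpace Y]

/-- a coboundary for `T^[p]` is a coboundary for `T` -/
theorem cob_of_iterate {T : Y → Y} (hT : Continuous T) {g F : Y → ZMod p} (hF : Continuous F)
    (h : ∀ y, g y = F (T^[p] y) - F y) :
    ∃ G : Y → ZMod p, Continuous G ∧ ∀ y, g y = G (T y) - G y := by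
  refine ⟨((comp p T - 1) ^ (p - 1)) F, cont_comp hT hF _, fun y => ?_⟩
  have hp : p - 1 + 1 = p := Nat.sub_add_cancel (Fact.out : p.Prime).one_lt.le
  have h1 : ((comp p T - 1) ^ p) F y = F (T^[p] y) - F y := by
    rw [sub_pow_end]
    simp only [LinearMap.sub_apply, Pi.sub_apply, comp_pow, Module.End.one_apply]
  have h2 : (comp p T - 1) ^ p = (comp p T - 1) * (comp p T - 1) ^ (p - 1) := by
    rw [← pow_succ', hp]
  rw [h y, ← h1, h2, Module.End.mul_apply]
  rfl

/-- **Type F.** If `g` is not a coboundary for `T`, then `g + f ∘ T - f` is not a coboundary for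
`T^[p]`. -/
theorem not_cob_iterate {T : Y → Y} (hT : Continuous T) {g : Y → ZMod p}
    (hg : ¬ ∃ G : Y → ZMod p, Continuous G ∧ ∀ y, g y = G (T y) - G y)
    {f : Y → ZMod p} (hf : Continuous f) :
    ¬ ∃ F : Y → ZMod p, Continuous F ∧ ∀ y, g y + f (T y) - f y = F (T^[p] y) - F y := by
  rintro ⟨F, hF, h⟩
  obtain ⟨G, hG, hG2⟩ := cob_of_iterate hT hF h
  refine hg ⟨fun y => G y - f y, hG.sub hf, fun y => ?_⟩
  have := hG2 y
  linear_combination this

/-- the sum over the `p` steps is `(T - 1) ^ (p - 1)`, hence a `T`-coboundary if `2 ≤ p - 1 + 1` -/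
theorem sum_iterate_eq {T : Y → Y} (g : Y → ZMod p) (y : Y) :
    ∑ i ∈ range p, g (T^[i] y) = ((comp p T - 1) ^ (p - 1)) g y := by
  have h : (∑ i ∈ range p, (Polynomial.X : Polynomial (ZMod p)) ^ i) =
      ((Polynomial.X : Polynomial (ZMod p)) - 1) ^ (p - 1) := by
    have hp : p - 1 + 1 = p := Nat.sub_add_cancel (Fact.out : p.Prime).one_lt.le
    have h1 : (∑ i ∈ range p, (Polynomial.X : Polynomial (ZMod p)) ^ i) * (Polynomial.X - 1) =
        (Polynomial.X - 1) ^ (p - 1) * (Polynomial.X - 1) := by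
      rw [geom_sum_mul, ← pow_succ, hp, sub_pow_char, one_pow]
    have h2 : (Polynomial.X - 1 : Polynomial (ZMod p)) ≠ 0 := Polynomial.X_sub_C_ne_zero 1
    exact mul_right_cancel₀ h2 h1
  have h2 := congrArg (Polynomial.aeval (comp p T)) h
  simp only [map_sum, map_pow, map_sub, Polynomial.aeval_X, map_one] at h2
  rw [← h2, LinearMap.sum_apply, Finset.sum_apply]
  exact sum_congr rfl fun i _ => (comp_pow T i g y).symm

/-- the sum over `p` steps of any continuous function is a `T`-coboundary of a continuous function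
(`p ≥ 2`) -/
theorem sum_iterate_cob {T : Y → Y} (hT : Continuous T) {g : Y → ZMod p} (hg : Continuous g) :
    ∃ G : Y → ZMod p, Continuous G ∧ ∀ y, ∑ i ∈ range p, g (T^[i] y) = G (T y) - G y := by
  have hp : p - 2 + 1 = p - 1 := by
    have := (Fact.out : p.Prime).two_le
    omega
  refine ⟨((comp p T - 1) ^ (p - 2)) g, cont_comp hT hg _, fun y => ?_⟩
  rw [sum_iterate_eq, ← hp, pow_succ', Module.End.mul_apply]
  rfl

end

end Vale.Agent.P329.H6
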