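import Mathlib.Order.Filter.Ultrafilter.Basic
import Mathlib.Order.Filter.AtTopBot.Basic
import Mathlib.Order.Zorn

/-!
# P329 : minimal invariant filters and the filter `MM P` of an ultrafilter

`Mn T M` : `M` is a minimal proper `T`-invariant filter.  `mm F T P` is the filter of the sets `S`
with `T^[i] x ∈ S` for `F`-all `i` and `P`-all `x`; if `F` is minimal for `(· + 1)` on `ℕ` and `P`
is an ultrafilter, it is minimal for `T`.
-/

namespace Vale.Agent.P329.H6

open Filter Set

section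

variable {X : Type*}

/-- `M` is a minimal proper invariant filter of `T`. -/
structure Mn (T : X → X) (M : Filter X) : Prop where
  ne : M.NeBot
  inv : Tendsto T M M
  min : ∀ G : Filter X, G ≤ M → G.NeBot → Tendsto T G G → M ≤ G

theorem exists_mn (T : X → X) (F₀ : Filter X) (h0 : F₀.NeBot) (hT : Tendsto T F₀ F₀) :
    ∃ F, F ≤ F₀ ∧ Mn T F := by
  have key := zorn_le_nonempty₀ (α := (Filter X)ᵒᵈ)
    {G | (OrderDual.ofDual G).NeBot ∧ Tendsto T (OrderDual.ofDual G) (OrderDual.ofDual G)}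
    (by
      intro c hc hch y hy
      refine ⟨OrderDual.toDual (sInf (OrderDual.ofDual '' c)), ⟨?_, ?_⟩, ?_⟩
      · show (sInf (OrderDual.ofDual '' c)).NeBot
        refine sInf_neBot_of_directed' ⟨_, mem_image_of_mem _ hy⟩ ?_ ?_
        · rintro _ ⟨a, ha, rfl⟩ _ ⟨b, hb, rfl⟩
          rcases hch.total ha hb with h | h
          · exact ⟨_, mem_image_of_mem _ hb, h, le_refl _⟩
          · exact ⟨_, mem_image_of_mem _ ha, le_refl _, h⟩
        · rintro ⟨a, ha, hab⟩
          exact (hc ha).1.ne hab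
      · show Tendsto T (sInf (OrderDual.ofDual '' c)) (sInf (OrderDual.ofDual '' c))
        have h2 : ∀ b ∈ OrderDual.ofDual '' c,
            Filter.map T (sInf (OrderDual.ofDual '' c)) ≤ b := by
          rintro _ ⟨a, ha, rfl⟩
          exact (hc ha).2.mono_left (sInf_le (mem_image_of_mem _ ha))
        exact le_sInf h2
      · intro z hz
        show sInf (OrderDual.ofDual '' c) ≤ OrderDual.ofDual z
        exact sInf_le (mem_image_of_mem _ hz))
    (OrderDual.toDual F₀) ⟨h0, hT⟩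
  obtain ⟨m, hm, hmax⟩ := key
  refine ⟨OrderDual.ofDual m, hm, hmax.1.1, hmax.1.2, ?_⟩
  intro G hG hGn hGT
  exact hmax.2 (y := OrderDual.toDual G) ⟨hGn, hGT⟩ hG

variable {T : X → X} {M : Filter X}

theorem Mn.iterate (h : Mn T M) (i : ℕ) : Tendsto T^[i] M M := h.inv.iterate i

theorem Mn.eventually_iterate (h : Mn T M) (i : ℕ) {q : X → Prop} (hq : ∀ᶠ x in M, q x) :
    ∀ᶠ x in M, q (T^[i] x) := (h.iterate i).eventually hq

/-- Bounded gaps. -/
theorem Mn.gaps (h : Mn T M) {q : X → Prop} (hq : ∃ᶠ x in M, q x) :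
    ∃ n, ∀ᶠ x in M, ∃ j ≤ n, q (T^[j] x) := by
  by_contra hcon
  push Not at hcon
  let G : Filter X := M ⊓ ⨅ n : ℕ, 𝓟 {x | ∀ j ≤ n, ¬ q (T^[j] x)}
  have hGle : ∀ n : ℕ, G ≤ 𝓟 {x | ∀ j ≤ n, ¬ q (T^[j] x)} := fun n =>
    inf_le_right.trans (iInf_le (fun n : ℕ => 𝓟 {x | ∀ j ≤ n, ¬ q (T^[j] x)}) n)
  have hanti : Antitone fun n : ℕ => 𝓟 {x | ∀ j ≤ n, ¬ q (T^[j] x)} := by
    intro a b hab
    refine principal_mono.2 fun x hx j hj => hx j (hj.trans hab)
  have hG : G.NeBot := by
    rw [inf_neBot_iff]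
    intro s hs s' hs'
    rw [mem_iInf_of_directed (directed_of_isDirected_le hanti)] at hs'
    obtain ⟨n, hn⟩ := hs'
    obtain ⟨x, hx, hx'⟩ := ((hcon n).and_eventually hs).exists
    exact ⟨x, hx', hn hx⟩
  have hT : Tendsto T G G := by
    refine tendsto_inf.2 ⟨h.inv.mono_left inf_le_left, ?_⟩
    refine tendsto_iInf.2 fun n => ?_
    refine (tendsto_principal.2 ?_)
    have h1 : ∀ᶠ x in G, ∀ j ≤ n + 1, ¬ q (T^[j] x) :=
      hGle (n + 1) (mem_principal_self _)
    filter_upwards [h1] with x hx j hj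
    have := hx (j + 1) (by omega)
    rwa [Function.iterate_succ_apply] at this
  have hle := h.min G inf_le_left hG hT
  have h5 : ∀ᶠ x in M, ¬ q x := by
    have h1 : ∀ᶠ x in G, ∀ j ≤ 0, ¬ q (T^[j] x) :=
      hGle 0 (mem_principal_self _)
    filter_upwards [hle h1] with x hx
    exact hx 0 le_rfl
  exact hq h5

/-- A frequent event of `M` occurs frequently in every proper invariant filter below any filter
whose minimal part is `M`; here: an event invariant under `T` holds always or never. -/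
theorem Mn.zero_one (h : Mn T M) {q : X → Prop} (hinv : ∀ᶠ x in M, q x → q (T x))
    (hq : ∃ᶠ x in M, q x) : ∀ᶠ x in M, q x := by
  let G : Filter X := M ⊓ 𝓟 {x | q x}
  have hG : G.NeBot := by
    rw [inf_principal_neBot_iff]
    intro s hs
    obtain ⟨x, hx, hx'⟩ := (hq.and_eventually hs).exists
    exact ⟨x, hx', hx⟩
  have hT : Tendsto T G G := by
    refine tendsto_inf.2 ⟨h.inv.mono_left inf_le_left, tendsto_principal.2 ?_⟩
    have h1 : ∀ᶠ x in G, q x :=
      Eventually.filter_mono inf_le_right (eventually_principal.2 fun x hx => hx)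
    have h2 : ∀ᶠ x in G, q x → q (T x) := Eventually.filter_mono inf_le_left hinv
    filter_upwards [h1, h2] with x hx hx' using hx' hx
  have hle := h.min G inf_le_left hG hT
  have h1 : ∀ᶠ x in G, q x :=
    Eventually.filter_mono inf_le_right (eventually_principal.2 fun x hx => hx)
  exact Eventually.filter_mono hle h1

/-- A factor of a minimal filter is minimal. -/
theorem Mn.map {Y : Type*} {S : Y → Y} {π : X → Y} (h : Mn T M)
    (hπ : ∀ᶠ x in M, π (T x) = S (π x)) : Mn S (M.map π) := by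
  have := h.ne
  refine ⟨inferInstance, ?_, ?_⟩
  · rw [tendsto_map'_iff]
    refine ((tendsto_map.comp h.inv).congr' ?_)
    exact hπ
  · intro G hG hGn hGS
    let G' : Filter X := M ⊓ G.comap π
    have hG'n : G'.NeBot := by
      rw [inf_neBot_iff]
      rintro s hs s' ⟨t, ht, hts⟩
      have h1 : π '' s ∈ G := hG (image_mem_map hs)
      obtain ⟨_, ⟨x, hxs, rfl⟩, hxt⟩ := hGn.nonempty_of_mem (inter_mem h1 ht)
      exact ⟨x, hxs, hts hxt⟩
    have hG'T : Tendsto T G' G' := by
      refine tendsto_inf.2 ⟨h.inv.mono_left inf_le_left, ?_⟩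
      rw [tendsto_comap_iff]
      have h1 : Tendsto (S ∘ π) G' G := hGS.comp (tendsto_comap.mono_left inf_le_right)
      refine h1.congr' ?_
      have h2 : ∀ᶠ x in G', π (T x) = S (π x) := Eventually.filter_mono inf_le_left hπ
      filter_upwards [h2] with x hx using hx.symm
    have hle := h.min G' inf_le_left hG'n hG'T
    calc M.map π ≤ G'.map π := map_mono hle
      _ ≤ (G.comap π).map π := map_mono inf_le_right
      _ ≤ G := map_comap_le

end

section

variable {X : Type*}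

/-- The sets containing `T^[i] x` for `F`-all `i` and `P`-all `x`. -/
def mm (F : Filter ℕ) (T : X → X) (P : Filter X) : Filter X :=
  F.bind fun i => P.map T^[i]

variable {F : Filter ℕ} {T : X → X} {P : Filter X}

theorem eventually_mm {q : X → Prop} :
    (∀ᶠ x in mm F T P, q x) ↔ ∀ᶠ i in F, ∀ᶠ x in P, q (T^[i] x) := by
  rw [mm, eventually_bind]
  rfl

theorem mem_mm {S : Set X} : S ∈ mm F T P ↔ ∀ᶠ i in F, ∀ᶠ x in P, T^[i] x ∈ S :=
  eventually_mm (q := fun x => x ∈ S)

theorem mm_neBot [F.NeBot] [P.NeBot] : (mm F T P).NeBot := by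
  refine ⟨fun h => ?_⟩
  have h1 : ∅ ∈ mm F T P := h ▸ mem_bot
  rw [mem_mm] at h1
  obtain ⟨i, hi⟩ := h1.exists
  obtain ⟨x, hx⟩ := hi.exists
  exact hx

theorem mm_inv (hF : Tendsto (· + 1) F F) : Tendsto T (mm F T P) (mm F T P) := by
  intro S hS
  rw [mem_mm] at hS
  rw [mem_map, mem_mm]
  have h := hF.eventually hS
  filter_upwards [h] with i hi
  filter_upwards [hi] with x hx
  rw [Function.iterate_succ_apply'] at hx
  exact hx

/-- `mm F T P` is minimal for an ultrafilter `P`. -/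
theorem mn_mm (hF : Mn (· + 1) F) (P : Ultrafilter X) : Mn T (mm F T (P : Filter X)) := by
  have := hF.ne
  refine ⟨mm_neBot, mm_inv hF.inv, ?_⟩
  intro G hG hGn hGT
  let GI : Filter ℕ :=
    { sets := {I | ∃ S ∈ G, {i | ∀ᶠ x in (P : Filter X), T^[i] x ∈ S} ⊆ I}
      univ_sets := ⟨univ, univ_mem, subset_univ _⟩
      sets_of_superset := by
        rintro I J ⟨S, hS, hSI⟩ hIJ
        exact ⟨S, hS, hSI.trans hIJ⟩
      inter_sets := by
        rintro I J ⟨S, hS, hSI⟩ ⟨S', hS', hSJ⟩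
        refine ⟨S ∩ S', inter_mem hS hS', fun i hi => ⟨hSI ?_, hSJ ?_⟩⟩
        · exact Eventually.mono hi fun x hx => hx.1
        · exact Eventually.mono hi fun x hx => hx.2 }
  have hmem : ∀ {S}, S ∈ G → {i | ∀ᶠ x in (P : Filter X), T^[i] x ∈ S} ∈ GI :=
    fun {S} hS => ⟨S, hS, Subset.rfl⟩
  have hne : (F ⊓ GI).NeBot := by
    rw [inf_neBot_iff]
    rintro J hJ I ⟨S, hS, hSI⟩
    by_contra hcon
    have h1 : Sᶜ ∈ mm F T (P : Filter X) := by
      rw [mem_mm]
      filter_upwards [hJ] with i hi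
      exact Ultrafilter.eventually_not.2 fun h2 => hcon ⟨i, hi, hSI h2⟩
    have h2 := hG h1
    have h3 := inter_mem hS h2
    rw [inter_compl_self] at h3
    exact hGn.ne (empty_mem_iff_bot.1 h3)
  have hT : Tendsto (· + 1) (F ⊓ GI) (F ⊓ GI) := by
    refine tendsto_inf.2 ⟨hF.inv.mono_left inf_le_left, Tendsto.mono_left ?_ inf_le_right⟩
    rintro I ⟨S, hS, hSI⟩
    refine ⟨T ⁻¹' S, hGT hS, fun i hi => hSI ?_⟩
    refine Eventually.mono hi fun x hx => ?_
    rw [Function.iterate_succ_apply']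
    exact hx
  have hle := hF.min _ inf_le_left hne hT
  intro S hS
  rw [mem_mm]
  exact hle (mem_inf_of_right (hmem hS))

/-- Transfer: `mm` sees only the events `T^[i] x ∈ S`. -/
theorem mm_congr {P P' : Filter X} {S : Set X}
    (h : ∀ i, (∀ᶠ x in P, T^[i] x ∈ S) ↔ ∀ᶠ x in P', T^[i] x ∈ S) :
    S ∈ mm F T P ↔ S ∈ mm F T P' := by
  rw [mem_mm, mem_mm]
  exact eventually_congr (Eventually.of_forall fun i => h i)

end

end Vale.Agent.P329.H6
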