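import Vale.Agent.P329.H366.Defs
import Vale.Agent.P329.H6.Fil

/-!
# P329 : row (X) of helper366's copy (minimal shift filter)
-/

namespace Vale.Agent.P329.H366

open Filter Set

variable {α : Type} {p : ℕ} {A : (List α → ZMod p) → Prop} {M : Filter (List α)}
  {FF : Filter ℕ} {P Q : Ultrafilter (List α)}

theorem minShift_iff : MinShift FF ↔ FF ≤ atTop ∧ H6.Mn (fun i : ℕ => i + 1) FF := by
  constructor
  · intro h
    exact ⟨h.cof, h.ne, h.inv, fun G hG hn hT => (h.min G hn hG hT).ge⟩
  · rintro ⟨h1, h2⟩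
    exact ⟨h2.ne, h1, h2.inv, fun G hn hG hT => le_antisymm hG (h2.min G hG hn hT)⟩

theorem minInv_iff : MinInv M ↔ H6.Mn List.tail M := by
  constructor
  · intro h
    exact ⟨h.ne, h.inv, fun G hG hn hT => (h.min G hn hG hT).ge⟩
  · intro h2
    exact ⟨h2.ne, h2.inv, fun G hn hG hT => le_antisymm hG (h2.min G hG hn hT)⟩

theorem tail_iter (i : ℕ) (v : List α) : List.tail^[i] v = v.drop i := by
  induction i generalizing v with
  | zero => rfl
  | succ i ih =>
    rw [Function.iterate_succ_apply, ih]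
    cases v with
    | nil => simp
    | cons a v => rfl

theorem exists_FF : ∃ FF : Filter ℕ, MinShift FF := by
  obtain ⟨F, hF, h⟩ := H6.exists_mn (fun i : ℕ => i + 1) atTop inferInstance
    (tendsto_atTop_mono (fun i => Nat.le_succ i) tendsto_id)
  exact ⟨F, minShift_iff.2 ⟨hF, h⟩⟩

theorem MM_eq (FF : Filter ℕ) (P : Ultrafilter (List α)) :
    MM FF P = H6.mm FF List.tail (P : Filter (List α)) := by
  ext S
  rw [mem_MM, H6.mem_mm]
  simp only [tail_iter]

theorem MM_minInv (h : MinShift FF) (P : Ultrafilter (List α)) : MinInv (MM FF P) := by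
  rw [minInv_iff, MM_eq]
  exact H6.mn_mm (minShift_iff.1 h).2 P

theorem MinInv.syn (h : MinInv M) {S : Set (List α)} (hS : ∃ᶠ v in M, v ∈ S) :
    ∃ n, ∀ᶠ v in M, ∃ j ≤ n, v.drop j ∈ S := by
  obtain ⟨n, hn⟩ := (minInv_iff.1 h).gaps hS
  refine ⟨n, ?_⟩
  simpa only [tail_iter] using hn

theorem ind_drop (hA : Alg A) {S : Set (List α)} (hS : A (ind p S)) (i : ℕ) :
    A (ind p {v | v.drop i ∈ S}) := by
  induction i with
  | zero => simpa using hS
  | succ i ih =>
    have h1 := hA.tail _ ih
    have h2 : (fun v : List α => ind p {v | v.drop i ∈ S} v.tail) =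
        ind p {v | v.drop (i + 1) ∈ S} := by
      funext v
      have h3 : List.drop i v.tail = List.drop (i + 1) v := by
        rw [← tail_iter, ← tail_iter, Function.iterate_succ_apply]
      by_cases hv : List.drop (i + 1) v ∈ S
      · have h4 : v.tail ∈ {v : List α | v.drop i ∈ S} := by
          show List.drop i v.tail ∈ S
          rwa [h3]
        have h5 : v ∈ {v : List α | v.drop (i + 1) ∈ S} := hv
        simp only [ind]
        rw [if_pos h4, if_pos h5]
      · have h4 : v.tail ∉ {v : List α | v.drop i ∈ S} := by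
          show List.drop i v.tail ∉ S
          rwa [h3]
        have h5 : v ∉ {v : List α | v.drop (i + 1) ∈ S} := hv
        simp only [ind]
        rw [if_neg h4, if_neg h5]
    rwa [h2] at h1

theorem MM_eqv (hA : Alg A) (h : Eqv A P Q) {S : Set (List α)} (hS : A (ind p S)) :
    S ∈ MM FF P ↔ S ∈ MM FF Q := by
  rw [mem_MM, mem_MM]
  exact eventually_congr (Eventually.of_forall fun i => h _ (ind_drop hA hS i))

theorem MM_rec (h : MinShift FF) {S : Set (List α)} (hS : ∃ᶠ v in MM FF P, v ∈ S) (N : ℕ) :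
    ∃ i ≥ N, ∀ᶠ v in (P : Filter (List α)), v.drop i ∈ S := by
  by_contra hcon
  refine hS ?_
  have h1 : ∀ᶠ i in FF, N ≤ i := h.cof (eventually_ge_atTop N)
  show Sᶜ ∈ MM FF P
  rw [mem_MM]
  filter_upwards [h1] with i hi
  exact Ultrafilter.eventually_not.2 fun h2 => hcon ⟨i, hi, h2⟩

end Vale.Agent.P329.H366
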