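import Vale.Agent.P329.H6.Dyn

/-!
# Symmetry for the shift to the past

`S (x, s) = (T x, s - h x)` on `M × ZMod p`.  If the letter function of the return words to the
state `ρ` is a coboundary on `M × ZMod p` then `h` is a coboundary on `M`.
-/

set_option autoImplicit false
set_option linter.unusedSectionVars false

namespace Vale.Agent.P329.H6

open Finset

variable {X : Type*} {p : ℕ} [NeZero p]

/-- fibre sums of the letter function `h [s = ρ] + y ([s - h = ρ] - [s = ρ])` -/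
theorem past_sum (h ρ y : ZMod p) :
    ∑ s : ZMod p, ((if s = ρ then h else 0) +
      y * ((if s - h = ρ then 1 else 0) - (if s = ρ then 1 else 0))) = h := by
  have h1 : ∀ s : ZMod p, (s - h = ρ) = (s = ρ + h) := fun s => by
    rw [eq_iff_iff]
    exact sub_eq_iff_eq_add
  simp only [h1, sum_add_distrib, ← mul_sum, sum_sub_distrib]
  simp

theorem past_sum0 (h ρ : ZMod p) : ∑ s : ZMod p, (if s = ρ then h else 0) = h := by
  simp

/-- summing a coboundary over a fibre -/
theorem past_fibre {T : X → X} {h : X → ZMod p} {a : X × ZMod p → ZMod p} (x : X) :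
    ∑ s, (a (x, s) - a (T x, s - h x)) = (∑ s, a (x, s)) - ∑ s, a (T x, s) := by
  rw [sum_sub_distrib]
  congr 1
  exact Equiv.sum_comp (Equiv.subRight (h x)) (fun s => a (T x, s))

variable [TopologicalSpace X]

theorem continuousOn_fibre {M : Set X} {a : X × ZMod p → ZMod p}
    (ha : ContinuousOn a (M ×ˢ Set.univ)) : ContinuousOn (fun x => ∑ s, a (x, s)) M :=
  continuousOn_finsetSum _ fun s _ => ha.comp (by fun_prop) fun x hx => ⟨hx, trivial⟩

/-- **general form**: any function on the tower with fibre sums `τ` -/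
theorem past_cobOn {M : Set X} {T : X → X} {h τ : X → ZMod p} {Θ a : X × ZMod p → ZMod p}
    (ha : ContinuousOn a (M ×ˢ Set.univ)) (hΘ : ∀ x ∈ M, ∑ s, Θ (x, s) = τ x)
    (H : ∀ x ∈ M, ∀ s, Θ (x, s) = a (x, s) - a (T x, s - h x)) :
    ∃ b : X → ZMod p, ContinuousOn b M ∧ ∀ x ∈ M, τ x = b x - b (T x) := by
  refine ⟨fun x => ∑ s, a (x, s), continuousOn_fibre ha, fun x hx => ?_⟩
  rw [← hΘ x hx, sum_congr rfl fun s _ => H x hx s]
  exact past_fibre x

/-- **`w' = h [s = ρ]`** -/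
theorem past_w {M : Set X} {T : X → X} {h : X → ZMod p} {a : X × ZMod p → ZMod p} (ρ : ZMod p)
    (ha : ContinuousOn a (M ×ˢ Set.univ))
    (H : ∀ x ∈ M, ∀ s, (if s = ρ then h x else 0) = a (x, s) - a (T x, s - h x)) :
    ∃ b : X → ZMod p, ContinuousOn b M ∧ ∀ x ∈ M, h x = b x - b (T x) :=
  past_cobOn (Θ := fun z => if z.2 = ρ then h z.1 else 0) ha (fun x _ => past_sum0 (h x) ρ) H

/-- **`w' + φ`**, `φ` cohomologous to `y ([s - h = ρ] - [s = ρ])` -/
theorem past_phi {M : Set X} {T : X → X} {h y : X → ZMod p} {a : X × ZMod p → ZMod p}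
    (ρ : ZMod p) (ha : ContinuousOn a (M ×ˢ Set.univ))
    (H : ∀ x ∈ M, ∀ s, (if s = ρ then h x else 0) +
      y x * ((if s - h x = ρ then 1 else 0) - (if s = ρ then 1 else 0)) =
        a (x, s) - a (T x, s - h x)) :
    ∃ b : X → ZMod p, ContinuousOn b M ∧ ∀ x ∈ M, h x = b x - b (T x) :=
  past_cobOn (Θ := fun z => (if z.2 = ρ then h z.1 else 0) +
      y z.1 * ((if z.2 - h z.1 = ρ then 1 else 0) - (if z.2 = ρ then 1 else 0))) ha
    (fun x _ => past_sum (h x) ρ (y x)) H

/-- the same up to a further coboundary: `Θ` and `Θ'` differ by `c - c ∘ S` -/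
theorem past_cobOn' {M : Set X} {T : X → X} {h τ : X → ZMod p} {Θ Θ' a c : X × ZMod p → ZMod p}
    (ha : ContinuousOn a (M ×ˢ Set.univ)) (hc : ContinuousOn c (M ×ˢ Set.univ))
    (hΘ : ∀ x ∈ M, ∑ s, Θ (x, s) = τ x)
    (hd : ∀ x ∈ M, ∀ s, Θ' (x, s) = Θ (x, s) + (c (x, s) - c (T x, s - h x)))
    (H : ∀ x ∈ M, ∀ s, Θ' (x, s) = a (x, s) - a (T x, s - h x)) :
    ∃ b : X → ZMod p, ContinuousOn b M ∧ ∀ x ∈ M, τ x = b x - b (T x) := by
  refine past_cobOn (T := T) (h := h) (Θ := Θ) (a := fun z => a z - c z) (ha.sub hc) hΘ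
    fun x hx s => ?_
  have h1 := hd x hx s
  have h2 := H x hx s
  rw [h2] at h1
  linear_combination - h1

end Vale.Agent.P329.H6
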